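import Mathlib

/-! Row 339, gap (B): pointwise certificate for the convexity of `t ↦ E Φ_xx(t,X_t)^2` on an interval
where `γ = m` is constant.  See the team `ideas` table, rid 339 (helper75). -/

namespace Crest.Agent.R339

/-- `T + (a - X - 2G) U + dU ≥ 0`, where `T = y^2 - 12 G^2 b + 6 b^2`, `U` is the cubic multiplier and
`G' = G^2 - y`, `a' = b`, `X' = X1 ≤ X w`, `w' = -w^2`, `b' = -G b`. -/
theorem gap_certificate (G a X w b y X1 : ℝ) (ha : 0 ≤ a) (hG : 2 * a ≤ G) (hX : 0 ≤ X) (hw : 0 ≤ w)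
    (hb : 0 ≤ b) (hD : b ≤ a * w) (hX1 : X1 ≤ X * w) :
    0 ≤ y^2 - 12*G^2*b + 6*b^2 + (a - X - 2*G) * ((52/125 : ℝ)*G^3 + (54/125 : ℝ)*G^2*(a - X) + (-2209/500 : ℝ)*G*b + (-41/50 : ℝ)*a*b + (339/500 : ℝ)*X*(b - a*w) + (-161/500 : ℝ)*G^2*w + (36/25 : ℝ)*G*a*w + (-869/500 : ℝ)*a^2*w)
      + (3*(52/125 : ℝ)*G^2 + 2*(54/125 : ℝ)*G*(a - X) + (-2209/500 : ℝ)*b + 2*(-161/500 : ℝ)*G*w + (36/25 : ℝ)*a*w) * (G^2 - y)
      + ((54/125 : ℝ)*G^2 + (-41/50 : ℝ)*b - (339/500 : ℝ)*X*w + (36/25 : ℝ)*G*w + 2*(-869/500 : ℝ)*a*w) * b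
      + (-(54/125 : ℝ)*G^2 + (339/500 : ℝ)*(b - a*w)) * X1
      + (-(339/500 : ℝ)*X*a + (-161/500 : ℝ)*G^2 + (36/25 : ℝ)*G*a + (-869/500 : ℝ)*a^2) * (-w^2)
      + ((-2209/500 : ℝ)*G + (-41/50 : ℝ)*a + (339/500 : ℝ)*X) * (-G*b) := by
  obtain ⟨H, rfl⟩ : ∃ H, G = 2 * a + H := ⟨G - 2 * a, by ring⟩
  have hH : 0 ≤ H := by linarith
  obtain ⟨E, rfl⟩ : ∃ E, X1 = X * w - E := ⟨X * w - X1, by ring⟩
  have hE : 0 ≤ E := by linarith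
  obtain ⟨D, hDe⟩ : ∃ D, D = a * w - b := ⟨_, rfl⟩
  have hD0 : 0 ≤ D := by linarith
  have key : 0 ≤ E * ((54/125 : ℝ)*(2*a+H)^2 + (339/500 : ℝ)*D) + ((1 : ℝ) * 1 * ((1 : ℝ) * (y) + (2209/1000 : ℝ) * (b) + (-78/125 : ℝ) * (H*H) + (-366/125 : ℝ) * (H*a) + (-84/25 : ℝ) * (a*a) + (54/125 : ℝ) * (H*X) + (108/125 : ℝ) * (a*X) + (161/500 : ℝ) * (H*w) + (-19/250 : ℝ) * (a*w))^2
      + (316319/1000000 : ℝ) * 1 * ((1 : ℝ) * (b) + (-1584/316319 : ℝ) * (H*H) + (-116048/316319 : ℝ) * (H*a) + (-297760/316319 : ℝ) * (a*a) + (9712/316319 : ℝ) * (H*X) + (359424/316319 : ℝ) * (a*X) + (8702/316319 : ℝ) * (H*w) + (-138116/316319 : ℝ) * (a*w))^2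
      + (1052396/39539875 : ℝ) * 1 * ((1 : ℝ) * (H*H) + (3534371/4209584 : ℝ) * (H*a) + (1413071/2104792 : ℝ) * (a*a) + (-410557/1052396 : ℝ) * (H*X) + (1339283/2104792 : ℝ) * (a*X) + (469983/4209584 : ℝ) * (H*w) + (-2232521/4209584 : ℝ) * (a*w))^2
      + (289364681/2104792000 : ℝ) * 1 * ((1 : ℝ) * (H*a) + (-13306566/289364681 : ℝ) * (a*a) + (154022212/289364681 : ℝ) * (H*X) + (365043714/289364681 : ℝ) * (a*X) + (-186245539/289364681 : ℝ) * (H*w) + (5583717/289364681 : ℝ) * (a*w))^2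
      + (4695770912/36170585125 : ℝ) * 1 * ((1 : ℝ) * (a*a) + (-9042775057/9391541824 : ℝ) * (H*X) + (-23730597287/18783083648 : ℝ) * (a*X) + (7816272105/9391541824 : ℝ) * (H*w) + (-6622666305/18783083648 : ℝ) * (a*w))^2
      + (191862155623/2347885456000 : ℝ) * 1 * ((1 : ℝ) * (H*X) + (253950345569/383724311246 : ℝ) * (a*X) + (-134011971951/191862155623 : ℝ) * (H*w) + (141248009911/383724311246 : ℝ) * (a*w))^2
      + (9642854972981/95931077811500 : ℝ) * 1 * ((1 : ℝ) * (a*X) + (-3468159520697/19285709945962 : ℝ) * (H*w) + (-2590420023717/19285709945962 : ℝ) * (a*w))^2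
      + (535162288628653/19285709945962000 : ℝ) * 1 * ((1 : ℝ) * (H*w) + (-111215004455077/535162288628653 : ℝ) * (a*w))^2
      + (6463936859153789/267581144314326500 : ℝ) * 1 * ((1 : ℝ) * (a*w))^2
      + (11/250 : ℝ) * (H*a) * ((1 : ℝ) * (H) + (-23/22 : ℝ) * (a) + (18/11 : ℝ) * (X))^2
      + (791/11000 : ℝ) * (H*a) * ((1 : ℝ) * (a) + (-1042/791 : ℝ) * (X) + (-22/791 : ℝ) * (w))^2
      + (12003/98875 : ℝ) * (H*a) * ((1 : ℝ) * (X) + (-521/24006 : ℝ) * (w))^2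
      + (95347/6001500 : ℝ) * (H*a) * ((1 : ℝ) * (w))^2
      + (18/125 : ℝ) * (H*X) * ((1 : ℝ) * (H) + (-17/36 : ℝ) * (a))^2
      + (359/9000 : ℝ) * (H*X) * ((1 : ℝ) * (a))^2
      + (99/250 : ℝ) * (H*w) * ((1 : ℝ) * (H) + (-52/99 : ℝ) * (a))^2
      + (49/1980 : ℝ) * (H*w) * ((1 : ℝ) * (a))^2
      + (11/125 : ℝ) * (a*X) * ((1 : ℝ) * (H) + (-5/22 : ℝ) * (a))^2
      + (17/1100 : ℝ) * (a*X) * ((1 : ℝ) * (a))^2
      + (11/125 : ℝ) * (a*w) * ((1 : ℝ) * (H) + (-9/22 : ℝ) * (a))^2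
      + (117/5500 : ℝ) * (a*w) * ((1 : ℝ) * (a))^2
      + (3/100 : ℝ) * (X*w) * ((1 : ℝ) * (H) + (-3 : ℝ) * (a))^2
      + (163/500 : ℝ) * (X*w) * ((1 : ℝ) * (a))^2
      + (59/100 : ℝ) * b * ((1 : ℝ) * (H) + (-126/295 : ℝ) * (a))^2
      + (2709/147500 : ℝ) * b * ((1 : ℝ) * (a))^2
      + (281/500 : ℝ) * D * ((1 : ℝ) * (H) + (-199/281 : ℝ) * (a) + (-127/281 : ℝ) * (X))^2
      + (4787/70250 : ℝ) * D * ((1 : ℝ) * (a) + (-8843/4787 : ℝ) * (X))^2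
      + (197863/598375 : ℝ) * D * ((1 : ℝ) * (X))^2
      + (1/50 : ℝ) * (b*(H*a)) * ((1 : ℝ) * (1))^2
      + (3/100 : ℝ) * (D*(H*a)) * ((1 : ℝ) * (1))^2
      + (7/250 : ℝ) * (b*(H*X)) * ((1 : ℝ) * (1))^2
      + (2/25 : ℝ) * (D*(H*X)) * ((1 : ℝ) * (1))^2
      + (957/500 : ℝ) * (b*(a*X)) * ((1 : ℝ) * (1))^2
      + (19/250 : ℝ) * (D*(a*X)) * ((1 : ℝ) * (1))^2
      + (1/50 : ℝ) * (b*(H*w)) * ((1 : ℝ) * (1))^2
      + (1/50 : ℝ) * (D*(H*w)) * ((1 : ℝ) * (1))^2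
      + (9/500 : ℝ) * (b*(a*w)) * ((1 : ℝ) * (1))^2
      + (9/500 : ℝ) * (D*(a*w)) * ((1 : ℝ) * (1))^2
      + (2/125 : ℝ) * (b*D) * ((1 : ℝ) * (1))^2
      + (3/125 : ℝ) * (H*a*(X*w)) * ((1 : ℝ) * (1))^2) := by positivity
  refine key.trans_eq ?_
  subst hDe
  ring

end Crest.Agent.R339
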