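import Mathlib
import Crest.Prelude.Def_SpinGlass

/-!
# Row 339 (QAOA reaches the ground state energy of SK): definitions and block statements

`n → ∞` picture: one spin coupled to a boson Fock space (`Model`), `W f = exp(-i φ(f))`.
A configuration is a unitary `V` on `K = ℂ² ⊗ Fock(E)`; its Heisenberg vector is `ψ = V* Z V Ω`;
a cost gate is `V ↦ WZ (γ • j ψ) * V` (`WZ f = exp(-i Z φ(f))`), a mixer is `V ↦ RX β * V`.
The energy is `Re ⟪ψ, ι (j ψ)⟫`.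

Chain: `S_CLS` (classical: Guerra + no overlap gap + IAMP) → `S_T` (trigonometric data)
→ `S_D2` (multi-species model `MGood` reaches the value) → `S_L` (Gaussian label model `LGood`)
→ `S_D1` (plain model) → `S_C` (finite `n`).
-/

set_option autoImplicit false
open MeasureTheory ProbabilityTheory Filter Topology Complex
open Crest.MathPhysics.SpinGlass

namespace Crest.Agent.R339

/-! ## The classical interface -/

/-- `k+1` independent standard Gaussians `g_0, …, g_k`. -/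
noncomputable def gk (k : ℕ) : Measure (Fin (k + 1) → ℝ) := Measure.pi fun _ => gaussianReal 0 1

/-- Data of an incremental message passing scheme: `m q` is the message whose field is `g_{q+1}`. -/
structure ClsData (k : ℕ) (m : Fin k → (Fin (k + 1) → ℝ) → ℝ) (s : (Fin (k + 1) → ℝ) → ℝ) :
    Prop where
  dep : ∀ q g g', (∀ i : Fin (k + 1), i.val ≤ q.val → g i = g' i) → m q g = m q g'
  cont_m : ∀ q, Continuous (m q)
  cont_s : Continuous s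
  odd_m : ∀ q g, m q (-g) = - m q g
  odd_s : ∀ g, s (-g) = - s g
  mem_m : ∀ q, MemLp (m q) 2 (gk k)
  abs_s : ∀ g, |s g| ≤ 1
  orth : ∀ q q', ∫ g, m q g * m q' g ∂(gk k) = if q = q' then 1 else 0

/-- The energy per spin reached by the scheme. -/
noncomputable def clsVal (k : ℕ) (m : Fin k → (Fin (k + 1) → ℝ) → ℝ)
    (s : (Fin (k + 1) → ℝ) → ℝ) : ℝ :=
  ∑ q : Fin k, (∫ g, s g * m q g ∂(gk k)) * (∫ g, s g * g q.succ ∂(gk k))

def S_CLS : Prop :=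
  ∀ ε > (0 : ℝ), ∃ (k : ℕ) (m : Fin k → (Fin (k + 1) → ℝ) → ℝ) (s : (Fin (k + 1) → ℝ) → ℝ),
    ClsData k m s ∧ ∃ N : ℕ, ∀ n ≥ N,
      (∫ J, maxPairEnergy n J ∂(gaussianCouplings n)) / n - ε ≤ clsVal k m s

/-! ## The spin-boson model -/

/-- Spin (`Z`, `X`) and Weyl operators `W f = exp (-i φ f)` on `K`, vacuum `Ω = |+⟩ ⊗ vac`,
one-particle vectors `ι f = |+⟩ ⊗ a†(f) vac`. -/
structure Model (E K : Type) [NormedAddCommGroup E] [InnerProductSpace ℂ E]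
    [NormedAddCommGroup K] [InnerProductSpace ℂ K] [CompleteSpace K] where
  Ω : K
  Z : K →L[ℂ] K
  X : K →L[ℂ] K
  W : E → K →L[ℂ] K
  ι : E →ₗᵢ[ℂ] K
  Z_star : star Z = Z
  X_star : star X = X
  Z_Z : Z * Z = 1
  X_X : X * X = 1
  Z_X : Z * X = -(X * Z)
  W_star : ∀ f, star (W f) = W (-f)
  W_zero : W 0 = 1
  W_mul : ∀ f g, W f * W g = cexp (-(I * ((inner ℂ f g).im : ℂ))) • W (f + g)
  Z_W : ∀ f, Commute Z (W f)
  X_W : ∀ f, Commute X (W f)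
  X_Ω : X Ω = Ω
  norm_Ω : ‖Ω‖ = 1
  vac : ∀ f, inner ℂ Ω (W f Ω) = cexp (-((‖f‖ : ℂ) ^ 2 / 2))
  dense : (Submodule.span ℂ
    (Set.range (fun f => W f Ω) ∪ Set.range (fun f => Z (W f Ω)))).topologicalClosure = ⊤
  X_ι : ∀ f, X (ι f) = ι f
  ι_W : ∀ f g, inner ℂ (ι f) (W g Ω) = -I * inner ℂ f g * cexp (-((‖g‖ : ℂ) ^ 2 / 2))

variable {E K : Type} [NormedAddCommGroup E] [InnerProductSpace ℂ E]
  [NormedAddCommGroup K] [InnerProductSpace ℂ K] [CompleteSpace K]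

namespace Model
variable (M : Model E K)

/-- `Y = i X Z`. -/
noncomputable def Y : K →L[ℂ] K := I • (M.X * M.Z)
/-- projection on `Z = spinSign b`. -/
noncomputable def P (b : Bool) : K →L[ℂ] K := (1 / 2 : ℂ) • (1 + ((spinSign b : ℝ) : ℂ) • M.Z)
/-- `exp (-i Z φ f)`. -/
noncomputable def WZ (f : E) : K →L[ℂ] K := M.P false * M.W f + M.P true * M.W (-f)
/-- `exp (-i θ X)`. -/
noncomputable def RX (θ : ℝ) : K →L[ℂ] K :=
  ((Real.cos θ : ℝ) : ℂ) • (1 : K →L[ℂ] K) - (I * ((Real.sin θ : ℝ) : ℂ)) • M.X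
/-- `exp (-i θ Z)`. -/
noncomputable def RZ (θ : ℝ) : K →L[ℂ] K :=
  ((Real.cos θ : ℝ) : ℂ) • (1 : K →L[ℂ] K) - (I * ((Real.sin θ : ℝ) : ℂ)) • M.Z
/-- `exp (-i Y φ f)`. -/
noncomputable def WY (f : E) : K →L[ℂ] K := M.RX (-(Real.pi / 4)) * M.WZ f * M.RX (Real.pi / 4)
/-- `cos φ f`. -/
noncomputable def cosW (f : E) : K →L[ℂ] K := (1 / 2 : ℂ) • (M.W (-f) + M.W f)
/-- `sin φ f`. -/
noncomputable def sinW (f : E) : K →L[ℂ] K := (1 / (2 * I) : ℂ) • (M.W (-f) - M.W f)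
/-- the Heisenberg vector `V* Z V Ω`. -/
noncomputable def psi (V : K →L[ℂ] K) : K := star V (M.Z (V M.Ω))
/-- atoms `P_b W(α) Ω`. -/
noncomputable def atom (b : Bool) (α : E) : K := M.P b (M.W α M.Ω)
/-- `x` has a finite first moment in every direction. -/
def Tame (x : K) (C : ℝ) : Prop := ∀ f, ‖M.W f x - x‖ ≤ C * ‖f‖

/-! ### plain model -/

noncomputable def pstep (j : K →ₗᵢ[ℂ] E) (V : K →L[ℂ] K) (a : ℝ × ℝ) : K →L[ℂ] K :=
  M.RX a.2 * M.WZ (((a.1 : ℝ) : ℂ) • j (M.psi V)) * V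
noncomputable def prun (j : K →ₗᵢ[ℂ] E) (w : List (ℝ × ℝ)) : K →L[ℂ] K := w.foldl (M.pstep j) 1
def PReach (j : K →ₗᵢ[ℂ] E) (V : K →L[ℂ] K) : Prop := ∃ w, V = M.prun j w
noncomputable def En0 (j : K →ₗᵢ[ℂ] E) (V : K →L[ℂ] K) : ℝ :=
  (inner ℂ (M.psi V) (M.ι (j (M.psi V)))).re

end Model

/-! ### labelled models (labels are real numbers with law `μ`) -/

open Classical in
/-- the direction attached to a square integrable field of vectors. -/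
noncomputable def JJ {μ : Measure ℝ} (j : Lp K 2 μ →ₗᵢ[ℂ] E) (y : ℝ → K) : E :=
  if h : MemLp y 2 μ then j (h.toLp y) else 0

namespace Model
variable (M : Model E K)

noncomputable def psiL (V : ℝ → K →L[ℂ] K) : ℝ → K := fun u => M.psi (V u)
noncomputable def costL {μ : Measure ℝ} (j : Lp K 2 μ →ₗᵢ[ℂ] E) (γ : ℝ) (V : ℝ → K →L[ℂ] K) :
    ℝ → K →L[ℂ] K := fun u => M.WZ (((γ : ℝ) : ℂ) • JJ j (M.psiL V)) * V u
noncomputable def EnV {μ : Measure ℝ} (j : Lp K 2 μ →ₗᵢ[ℂ] E) (y : ℝ → K) : ℝ :=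
  (∫ u, inner ℂ (y u) (M.ι (JJ j y)) ∂μ).re
/-- energy after a final global mixer `θ`. -/
noncomputable def EnL {μ : Measure ℝ} (j : Lp K 2 μ →ₗᵢ[ℂ] E) (θ : ℝ) (V : ℝ → K →L[ℂ] K) : ℝ :=
  M.EnV j (M.psiL fun u => M.RX θ * V u)

/-- overlap of the Heisenberg vector with `Z Ω` (Gaussian labels). -/
noncomputable def cL (V : ℝ → K →L[ℂ] K) : ℝ :=
  (∫ l, inner ℂ (M.Z M.Ω) (M.psi (V l)) ∂(gaussianReal 0 1)).re

/-- Gaussian label model: cost gates, global mixers, `Z`-rotations by `γ · label`. -/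
inductive LGood (j : Lp K 2 (gaussianReal 0 1) →ₗᵢ[ℂ] E) : (ℝ → K →L[ℂ] K) → Prop
  | one : LGood j (fun _ => 1)
  | cost (V) (γ : ℝ) : LGood j V → LGood j (M.costL j γ V)
  | rot (V) (θ : ℝ) : LGood j V → 1 / 2 ≤ M.cL (fun l => M.RX θ * V l) →
      LGood j (fun l => M.RX θ * V l)
  | zph (V) (γ : ℝ) : LGood j V → LGood j (fun l => M.RZ (γ * l) * V l)

end Model

/-- uniform labels. -/
noncomputable def mu0 : Measure ℝ := volume.restrict (Set.Ico (0 : ℝ) 1)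

namespace Model
variable (M : Model E K)

/-- selective mixer on the class `S`. -/
noncomputable def rotS (S : Set ℝ) (θ : ℝ) (V : ℝ → K →L[ℂ] K) : ℝ → K →L[ℂ] K :=
  fun u => M.RX (S.indicator (fun _ => θ) u) * V u
noncomputable def dev (V : ℝ → K →L[ℂ] K) : ℝ := ∫ u, ‖M.psi (V u) - M.Z M.Ω‖ ^ 2 ∂mu0

/-- multi-species model: cost gates and selective mixers on small classes. -/
inductive MGood (j : Lp K 2 mu0 →ₗᵢ[ℂ] E) : (ℝ → K →L[ℂ] K) → Prop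
  | one : MGood j (fun _ => 1)
  | cost (V) (γ : ℝ) : MGood j V → MGood j (M.costL j γ V)
  | rot (V) (S : Set ℝ) (θ : ℝ) : MGood j V → MeasurableSet S → mu0.real S ≤ 1 / 100 →
      M.dev V ≤ 1 / 10 → MGood j (M.rotS S θ V)

/-! ### trigonometric data and signal directions -/

/-- odd real trigonometric polynomial `Σ c sin (Σ_{i ≤ q} a_i φ(f_i))` of the fields `f_0 … f_q`. -/
noncomputable def opS (P : List (ℝ × (ℕ → ℝ))) (q : ℕ) (f : ℕ → E) : K →L[ℂ] K :=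
  (P.map fun t => ((t.1 : ℝ) : ℂ) •
    M.sinW (∑ i ∈ Finset.range (q + 1), ((t.2 i : ℝ) : ℂ) • f i)).sum

/-- seeds `[0, η)`, mediators `[η, 2η)`, data `[2η, 1)`. -/
def _root_.Crest.Agent.R339.Sd (η : ℝ) : Set ℝ := Set.Ico 0 η
def _root_.Crest.Agent.R339.Dt (η : ℝ) : Set ℝ := Set.Ico (2 * η) 1

/-- `f X q` = direction of the `q`-th signal field when the class `X` is excluded from the senders. -/
def IsSig (j : Lp K 2 mu0 →ₗᵢ[ℂ] E) (η : ℝ) (P : ℕ → List (ℝ × (ℕ → ℝ)))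
    (f : Set ℝ → ℕ → E) : Prop :=
  ∀ X, f X 0 = (((Real.sqrt η)⁻¹ : ℝ) : ℂ) • JJ j ((Sd η).indicator fun _ => M.Z M.Ω) ∧
    ∀ q, f X (q + 1) = JJ j ((Dt η \ X).indicator fun _ => M.opS (P q) q (f X) M.Ω)

/-- `exp (-i A)`. -/
noncomputable def _root_.Crest.Agent.R339.eI (A : K →L[ℂ] K) : K →L[ℂ] K :=
  NormedSpace.exp ((-I) • A)

/-- `sin (2 Θ) Ω` with `Θ` the final angle function. -/
noncomputable def topVec (ϑ : List (ℝ × (ℕ → ℝ))) (k : ℕ) (f : ℕ → E) : K :=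
  (1 / (2 * I) : ℂ) • (eI (-((2 : ℂ) • M.opS ϑ k f)) M.Ω - eI ((2 : ℂ) • M.opS ϑ k f) M.Ω)

noncomputable def topVal (j : Lp K 2 mu0 →ₗᵢ[ℂ] E) (η : ℝ) (ϑ : List (ℝ × (ℕ → ℝ))) (k : ℕ)
    (f : ℕ → E) : ℝ :=
  M.EnV j ((Dt η).indicator fun _ => M.topVec ϑ k f)

end Model

/-! ## Block statements -/

def S_F : Prop :=
  ∃ (E K : Type) (_ : NormedAddCommGroup E) (_ : InnerProductSpace ℂ E)
    (_ : NormedAddCommGroup K) (_ : InnerProductSpace ℂ K) (_ : CompleteSpace K)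
    (_ : Model E K), Nonempty (K →ₗᵢ[ℂ] E) ∧ Nonempty (Lp K 2 (gaussianReal 0 1) →ₗᵢ[ℂ] E)

def S_C (M : Model E K) (j : K →ₗᵢ[ℂ] E) : Prop :=
  ∀ w : List (ℝ × ℝ), Tendsto
    (fun n : ℕ => (∫ J, expectedEnergy n J (alternatingState n J w) ∂(gaussianCouplings n)) / n)
    atTop (𝓝 (M.En0 j (M.prun j w)))

def S_D1 (M : Model E K) (j0 : K →ₗᵢ[ℂ] E) (j : Lp K 2 (gaussianReal 0 1) →ₗᵢ[ℂ] E) : Prop :=
  ∀ V, M.LGood j V → ∀ θ : ℝ, ∀ ε > (0 : ℝ), ∃ w, M.EnL j θ V - ε ≤ M.En0 j0 (M.prun j0 w)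

def S_L (M : Model E K) (j : Lp K 2 (gaussianReal 0 1) →ₗᵢ[ℂ] E) : Prop :=
  ∃ j' : Lp K 2 mu0 →ₗᵢ[ℂ] E, ∀ V, M.MGood j' V → ∀ θ : ℝ, ∀ ε > (0 : ℝ),
    ∃ V', M.LGood j V' ∧ M.EnL j' θ V - ε ≤ M.EnL j θ V'

def S_D2 (M : Model E K) (j : Lp K 2 mu0 →ₗᵢ[ℂ] E) : Prop :=
  ∀ (η : ℝ), 0 < η → η ≤ 1 / 1000 → ∀ (P : ℕ → List (ℝ × (ℕ → ℝ))) (f : Set ℝ → ℕ → E),
    M.IsSig j η P f → ∀ (ϑ : List (ℝ × (ℕ → ℝ))) (k : ℕ), ∀ ε > (0 : ℝ),
      ∃ V, M.MGood j V ∧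
        M.topVal j η ϑ k (f ∅) - ε - 10 * Real.sqrt η ≤ M.EnL j (Real.pi / 4) V

def S_T (M : Model E K) (j : Lp K 2 mu0 →ₗᵢ[ℂ] E) : Prop :=
  ∀ (k : ℕ) (m : Fin k → (Fin (k + 1) → ℝ) → ℝ) (s : (Fin (k + 1) → ℝ) → ℝ), ClsData k m s →
    ∀ ε > (0 : ℝ), ∃ (P : ℕ → List (ℝ × (ℕ → ℝ))) (ϑ : List (ℝ × (ℕ → ℝ))), ∃ η0 > (0 : ℝ),
      ∀ η, 0 < η → η ≤ η0 → ∀ f, M.IsSig j η P f →
        clsVal k m s - ε ≤ M.topVal j η ϑ k (f ∅)

end Crest.Agent.R339
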