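import Crest.Agent.R339.ApiL

/-! # Row 339: assembling the blocks -/

set_option autoImplicit false
open MeasureTheory ProbabilityTheory Filter Topology Complex
open Crest.MathPhysics.SpinGlass

namespace Crest.Agent.R339

theorem glue (hcls : S_CLS) {E K : Type} [NormedAddCommGroup E] [InnerProductSpace ℂ E]
    [NormedAddCommGroup K] [InnerProductSpace ℂ K] [CompleteSpace K] (M : Model E K)
    (j0 : K →ₗᵢ[ℂ] E) (j : Lp K 2 (gaussianReal 0 1) →ₗᵢ[ℂ] E)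
    (hC : S_C M j0) (hD1 : S_D1 M j0 j) (hL : S_L M j) (hD2 : ∀ j', S_D2 M j')
    (hT : ∀ j', S_T M j') :
    ∀ ε > (0 : ℝ), ∃ angles : List (ℝ × ℝ), ∃ N : ℕ, ∀ n ≥ N,
      (∫ J, maxPairEnergy n J ∂(gaussianCouplings n)) / n - ε ≤
        (∫ J, expectedEnergy n J (alternatingState n J angles) ∂(gaussianCouplings n)) / n := by
  intro ε hε
  have h8 : 0 < ε / 8 := by positivity
  obtain ⟨k, m, s, hd, N, hN⟩ := hcls (ε / 8) h8
  obtain ⟨j', hL⟩ := hL
  obtain ⟨P, ϑ, η0, hη0, hT⟩ := hT j' k m s hd (ε / 8) h8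
  set η : ℝ := min (min η0 (1 / 1000)) ((ε / 80) ^ 2) with hη
  have hη1 : 0 < η := lt_min (lt_min hη0 (by norm_num)) (by positivity)
  have hη2 : η ≤ η0 := (min_le_left _ _).trans (min_le_left _ _)
  have hη3 : η ≤ 1 / 1000 := (min_le_left _ _).trans (min_le_right _ _)
  have hη4 : Real.sqrt η ≤ ε / 80 :=
    Real.sqrt_le_iff.2 ⟨by positivity, min_le_right _ _⟩
  obtain ⟨f, hf⟩ := M.exists_isSig j' η P
  obtain ⟨V, hV, h2⟩ := hD2 j' η hη1 hη3 P f hf ϑ k (ε / 8) h8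
  obtain ⟨V', hV', h3⟩ := hL V hV (Real.pi / 4) (ε / 8) h8
  obtain ⟨w, h4⟩ := hD1 V' hV' (Real.pi / 4) (ε / 8) h8
  have h5 := (hC w).eventually (lt_mem_nhds (show M.En0 j0 (M.prun j0 w) - ε / 8 <
    M.En0 j0 (M.prun j0 w) by linarith))
  obtain ⟨N', hN'⟩ := eventually_atTop.1 h5
  refine ⟨w, max N N', fun n hn => ?_⟩
  have a1 := hN n (le_trans (le_max_left _ _) hn)
  have a2 := hN' n (le_trans (le_max_right _ _) hn)
  have a3 := hT η hη1 hη2 f hf
  linarith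

end Crest.Agent.R339
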